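import Crest.Agent.H1KR.Defs

/-! Subtask KR-E: invariant means over a central projection of type II. -/

set_option autoImplicit false
set_option linter.unusedSectionVars false
set_option linter.unusedVariables false
open scoped InnerProductSpace ComplexConjugate Topology
open Crest.Agent.H2.KS Crest.Agent.H9.KB Crest.Agent.H1KR Filter

namespace Crest.Agent.H5.KR

universe u

variable {K : Type u} [NormedAddCommGroup K] [InnerProductSpace ℂ K] [CompleteSpace K]
variable {C : Set (K →L[ℂ] K)} {z : K →L[ℂ] K}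

theorem exists_wot {ι : Type*} (ω : Ultrafilter ι) (A : ι → (K →L[ℂ] K)) (c : ℝ) (hc0 : 0 ≤ c)
    (hc : ∀ᶠ k in ω, ‖A k‖ ≤ c) :
    ∃ y : K →L[ℂ] K, ∀ u v, Tendsto (fun k => ⟪u, A k v⟫_ℂ) ω (𝓝 ⟪u, y v⟫_ℂ) := by
  have hb : ∀ u v, ∀ᶠ k in ω, ‖⟪A k v, u⟫_ℂ‖ ≤ c * ‖v‖ * ‖u‖ := fun u v => hc.mono fun k hk =>
    (norm_inner_le_norm _ _).trans (by
      gcongr
      exact ((A k).le_opNorm v).trans (by gcongr))
  have hex : ∀ v u, ∃ l, Tendsto (fun k => ⟪A k v, u⟫_ℂ) ω (𝓝 l) := fun v u => by
    obtain ⟨l, -, hl⟩ := (isCompact_closedBall (0 : ℂ) (c * ‖v‖ * ‖u‖)).ultrafilter_le_nhds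
      (ω.map fun k => ⟪A k v, u⟫_ℂ) (by
        rw [Ultrafilter.coe_map, le_principal_iff, mem_map]
        exact (hb u v).mono fun k hk => by simpa using hk)
    exact ⟨l, hl⟩
  choose B hB using hex
  let Bl : K →ₗ⋆[ℂ] K →ₗ[ℂ] ℂ := LinearMap.mk₂'ₛₗ (starRingEnd ℂ) (RingHom.id ℂ) B
    (fun v₁ v₂ u => tendsto_nhds_unique (hB (v₁ + v₂) u) (by
      simpa only [map_add, inner_add_left] using (hB v₁ u).add (hB v₂ u)))
    (fun c v u => tendsto_nhds_unique (hB (c • v) u) (by
      simpa only [map_smul, inner_smul_left, smul_eq_mul] using (hB v u).const_mul _))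
    (fun v u₁ u₂ => tendsto_nhds_unique (hB v (u₁ + u₂)) (by
      simpa only [inner_add_right] using (hB v u₁).add (hB v u₂)))
    (fun c v u => tendsto_nhds_unique (hB v (c • u)) (by
      simpa only [inner_smul_right, smul_eq_mul, RingHom.id_apply] using (hB v u).const_mul _))
  have hBl : ∀ v u, ‖Bl v u‖ ≤ c * ‖v‖ * ‖u‖ := fun v u =>
    le_of_tendsto (hB v u).norm (hb u v)
  let Bc : K →L⋆[ℂ] K →L[ℂ] ℂ := LinearMap.mkContinuous₂ Bl c hBl
  refine ⟨InnerProductSpace.continuousLinearMapOfBilin Bc, fun u v => ?_⟩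
  have h1 : ⟪InnerProductSpace.continuousLinearMapOfBilin Bc v, u⟫_ℂ = B v u :=
    InnerProductSpace.continuousLinearMapOfBilin_apply Bc v u
  have h2 := (Complex.continuous_conj.tendsto _).comp (hB v u)
  rw [← h1, inner_conj_symm] at h2
  refine h2.congr fun k => ?_
  simp only [Function.comp_apply, inner_conj_symm]

/-- the corner `z P` -/
def cor (hC : ∀ c ∈ C, star c ∈ C) (hz : IsCP C.centralizer z) :
    NonUnitalStarSubalgebra ℂ (K →L[ℂ] K) where
  carrier := {a | a ∈ C.centralizer ∧ z * a = a}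
  add_mem' := fun ha hb => ⟨add_mem ha.1 hb.1, by rw [mul_add, ha.2, hb.2]⟩
  zero_mem' := ⟨fun c _ => by simp, by simp⟩
  mul_mem' := fun ha hb => ⟨mul_mem ha.1 hb.1, by rw [← mul_assoc, ha.2]⟩
  smul_mem' := fun c a ha => ⟨smul_mem c ha.1, by rw [mul_smul_comm, ha.2]⟩
  star_mem' := fun {a} ha => ⟨star_mem hC ha.1, by
    have := star_eq_of ((hz.comm a ha.1).eq.symm.trans ha.2)
    rwa [hz.proj.isSelfAdjoint.star_eq] at this⟩

instance (hC : ∀ c ∈ C, star c ∈ C) (hz : IsCP C.centralizer z) :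
    IsClosed ((cor hC hz : NonUnitalStarSubalgebra ℂ (K →L[ℂ] K)) : Set (K →L[ℂ] K)) := by
  have h1 : IsClosed C.centralizer := by
    have : C.centralizer = ⋂ c ∈ C, {a | c * a = a * c} := by
      ext a; simp [Set.mem_centralizer_iff]
    rw [this]
    exact isClosed_biInter fun c _ => isClosed_eq (by fun_prop) (by fun_prop)
  exact h1.inter (isClosed_eq (by fun_prop) (by fun_prop))

/-- the corner as a unital C⋆-algebra -/
def Cor (hC : ∀ c ∈ C, star c ∈ C) (hz : IsCP C.centralizer z) : Type u := cor hC hz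

section
variable (hC : ∀ c ∈ C, star c ∈ C) (hz : IsCP C.centralizer z)

noncomputable instance : NonUnitalCStarAlgebra (Cor hC hz) :=
  inferInstanceAs (NonUnitalCStarAlgebra (cor hC hz))

noncomputable instance : Ring (Cor hC hz) :=
  { (inferInstance : NonUnitalRing (Cor hC hz)) with
    one := ⟨z, hz.mem, hz.proj.isIdempotentElem.eq⟩
    one_mul := fun a => Subtype.ext a.2.2
    mul_one := fun a => Subtype.ext ((hz.comm a.1 a.2.1).eq.symm.trans a.2.2) }

noncomputable instance : NormedRing (Cor hC hz) :=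
  { (inferInstance : Ring (Cor hC hz)), (inferInstance : NonUnitalNormedRing (Cor hC hz)) with }

noncomputable instance : Algebra ℂ (Cor hC hz) := Algebra.ofModule smul_mul_assoc mul_smul_comm

noncomputable instance : NormedAlgebra ℂ (Cor hC hz) where
  norm_smul_le := norm_smul_le

noncomputable instance : CStarAlgebra (Cor hC hz) where

variable {hC hz}

/-- the underlying operator -/
def Cor.val (a : Cor hC hz) : K →L[ℂ] K := Subtype.val a

theorem Cor.mem (a : Cor hC hz) : a.val ∈ C.centralizer := a.2.1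
theorem Cor.z_mul (a : Cor hC hz) : z * a.val = a.val := a.2.2
theorem Cor.mul_z (a : Cor hC hz) : a.val * z = a.val := (hz.comm _ a.mem).eq.symm.trans a.z_mul
theorem Cor.ext {a b : Cor hC hz} (h : a.val = b.val) : a = b := Subtype.ext h
@[simp] theorem Cor.val_mul (a b : Cor hC hz) : (a * b).val = a.val * b.val := rfl
@[simp] theorem Cor.val_add (a b : Cor hC hz) : (a + b).val = a.val + b.val := rfl
@[simp] theorem Cor.val_sub (a b : Cor hC hz) : (a - b).val = a.val - b.val := rfl
@[simp] theorem Cor.val_neg (a : Cor hC hz) : (-a).val = -a.val := rfl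
@[simp] theorem Cor.val_zero : (0 : Cor hC hz).val = 0 := rfl
@[simp] theorem Cor.val_one : (1 : Cor hC hz).val = z := rfl
@[simp] theorem Cor.val_star (a : Cor hC hz) : (star a).val = star a.val := rfl
@[simp] theorem Cor.val_smul (c : ℂ) (a : Cor hC hz) : (c • a).val = c • a.val := rfl
@[simp] theorem Cor.norm_val (a : Cor hC hz) : ‖a.val‖ = ‖a‖ := rfl
theorem Cor.val_rsmul (c : ℝ) (a : Cor hC hz) : (c • a).val = (c : ℂ) • a.val := by
  rw [← Cor.val_smul, Complex.coe_smul]

theorem Cor.val_sum {ι : Type*} (s : Finset ι) (f : ι → Cor hC hz) :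
    (∑ i ∈ s, f i).val = ∑ i ∈ s, (f i).val :=
  map_sum ({ toFun := Cor.val, map_zero' := rfl, map_add' := Cor.val_add } :
    Cor hC hz →+ (K →L[ℂ] K)) f s

theorem ext_cor (hab : ∀ e, Abel C.centralizer e → z * e = e → e = 0) : Ext (Cor hC hz) := by
  intro ι _ _ e he
  let E : ι → ι → (K →L[ℂ] K) := fun a b => (e a b).val
  have Emul : ∀ a b c d, E a b * E c d = if b = c then E a d else 0 := fun a b c d => by
    have := congrArg Cor.val (he.mul a b c d)
    split_ifs at this ⊢ <;> exact this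
  have Estar : ∀ a b, star (E a b) = E b a := fun a b => congrArg Cor.val (he.star a b)
  have Esum : ∑ a, E a a = z := by
    have := congrArg Cor.val he.sum
    rwa [Cor.val_sum] at this
  let C' : Set (K →L[ℂ] K) := C ∪ Set.range fun p : ι × ι => E p.1 p.2
  have hC' : ∀ c ∈ C', star c ∈ C' := by
    rintro c (hc | ⟨p, rfl⟩)
    · exact Or.inl (hC c hc)
    · exact Or.inr ⟨(p.2, p.1), (Estar _ _).symm⟩
  have mem' : ∀ x, x ∈ C'.centralizer ↔ x ∈ C.centralizer ∧ ∀ a b, E a b * x = x * E a b := by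
    intro x
    constructor
    · exact fun h => ⟨fun c hc => h c (Or.inl hc), fun a b => h _ (Or.inr ⟨(a, b), rfl⟩)⟩
    · rintro ⟨h1, h2⟩ c (hc | ⟨p, rfl⟩)
      · exact h1 c hc
      · exact h2 _ _
  obtain ⟨v, hv, hgv, hr, hzr, -, hsm⟩ := exists_max_under hC' (n := 2) 0 z hz.proj
  set r := z - ∑ i, v i * star (v i) with hrdef
  have hzC' : z ∈ C'.centralizer :=
    (mem' z).2 ⟨hz.mem, fun a b => (hz.comm _ (e a b).mem).eq.symm⟩
  have hrC' : r ∈ C'.centralizer := sub_mem hzC' (sys_sum_mem hC' hv)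
  have hnil : ∀ c ∈ C'.centralizer, r * c = c → c * r = c → c * c = 0 → c = 0 := by
    intro c hc h1 h2 h3
    obtain ⟨u, hu, k1, k2, k3, k4, k5, k6⟩ := polar' hC' c hc
    have hru : r * u = u := k5 r h1
    have hur : u * r = u := k6 r h2
    have huu : u * u = 0 := k4 u (k3 c h3)
    have hru' : r * star u = star u := by
      have := star_eq_of hur
      rwa [hr.isSelfAdjoint.star_eq] at this
    have huu' : star u * star u = 0 := by rw [← star_mul, huu, star_zero]
    have hm := mul_mem (star_mem hC' hu) hu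
    have := hsm (star u * u) ![star u * u, u] ⟨hm, k1, ?_, ?_⟩ ?_
    · rw [← k2, this, mul_zero]
    · intro i; fin_cases i
      · exact hm
      · exact hu
    · intro i j
      fin_cases i <;> fin_cases j
      · simpa [k1.isSelfAdjoint.star_eq] using k1.isIdempotentElem.eq
      · simp [mul_assoc, huu]
      · simp [← mul_assoc, huu']
      · simp
    · intro i; fin_cases i
      · simp [← mul_assoc, hru']
      · simpa using hru
  have hcomm := commute_of_no_nil hC' hr hrC' hnil
  have hrE : ∀ a b, E a b * r = r * E a b := ((mem' r).1 hrC').2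
  have hr0 : r = 0 := by
    have key : ∀ a, r * E a a = 0 := by
      intro a
      have hEE : E a a * E a a = E a a := by rw [Emul, if_pos rfl]
      have hrr := hr.isIdempotentElem.eq
      refine hab _ ⟨mul_mem ((mem' r).1 hrC').1 (e a a).mem, ⟨?_, ?_⟩, ?_⟩ ?_
      · show r * E a a * (r * E a a) = r * E a a
        rw [mul_assoc, ← mul_assoc (E a a), hrE, mul_assoc, hEE, ← mul_assoc, hrr]
      · show star (r * E a a) = r * E a a
        rw [star_mul, Estar, hr.isSelfAdjoint.star_eq, hrE]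
      · have tl : ∀ x ∈ C.centralizer, ∃ x' ∈ C'.centralizer,
            r * E a a * x * (r * E a a) = E a a * (r * x' * r) := by
          intro x hx
          refine ⟨∑ b, E b a * x * E a b, (mem' _).2 ⟨sum_mem _ fun b =>
            mul_mem (mul_mem (e b a).mem hx) (e a b).mem, fun c d => ?_⟩, ?_⟩
          · rw [Finset.mul_sum, Finset.sum_mul, Finset.sum_eq_single d, Finset.sum_eq_single c]
            · rw [← mul_assoc, ← mul_assoc, Emul, if_pos rfl, mul_assoc _ (E a c), Emul, if_pos rfl]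
            · intro b _ hb
              rw [mul_assoc, Emul, if_neg hb, mul_zero]
            · simp
            · intro b _ hb
              rw [← mul_assoc, ← mul_assoc, Emul, if_neg (Ne.symm hb), zero_mul, zero_mul]
            · simp
          · rw [← mul_assoc (E a a), ← mul_assoc (E a a), hrE, mul_assoc r (E a a) (Finset.sum _ _),
              Finset.mul_sum, Finset.sum_eq_single a]
            · rw [← hrE a a]
              simp only [← mul_assoc, hEE]
              rw [hrE]
            · intro b _ hb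
              rw [← mul_assoc, ← mul_assoc, Emul, if_neg (Ne.symm hb), zero_mul, zero_mul]
            · simp
        intro x hx y hy
        obtain ⟨x', hx', ex⟩ := tl x hx
        obtain ⟨y', hy', ey⟩ := tl y hy
        rw [ex, ey]
        have cx : Commute (E a a) (r * x' * r) :=
          ((mem' _).1 (mul_mem (mul_mem hrC' hx') hrC')).2 a a
        have cy : Commute (E a a) (r * y' * r) :=
          ((mem' _).1 (mul_mem (mul_mem hrC' hy') hrC')).2 a a
        exact ((Commute.refl _).mul_right cy).mul_left (cx.symm.mul_right (hcomm x' hx' y' hy'))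
      · rw [← mul_assoc, hzr]
    have h1 : r * z = r := by
      have := star_eq_of hzr
      rwa [hr.isSelfAdjoint.star_eq, hz.proj.isSelfAdjoint.star_eq] at this
    rw [← h1, ← Esum, Finset.mul_sum]
    exact Finset.sum_eq_zero fun a _ => key a
  have h00 : star (v 0) = v 0 := hv.proj.isSelfAdjoint.star_eq
  have hzs : z = v 0 + v 1 * star (v 1) := by
    have := sub_eq_zero.1 hr0
    rw [this, Fin.sum_univ_two, h00, hv.proj.isIdempotentElem.eq]
  have a1 : v 0 * v 0 = v 0 := hv.proj.isIdempotentElem.eq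
  have a2 : v 0 * v 1 = 0 := by simpa [h00] using hv.orth 0 1
  have a3 : v 1 * v 0 = v 1 := sys_mul_e hv 1
  have a4 : star (v 1) * v 1 = v 0 := sys_self hv 1
  have a5 : star (v 1) * v 0 = 0 := by simpa using hv.orth 1 0
  have a6 : v 0 * star (v 1) = star (v 1) := sys_e_mul hv 1
  have a7 : v 1 * v 1 = 0 := by
    have : v 1 * v 0 * v 1 = 0 := by rw [mul_assoc, a2, mul_zero]
    rwa [a3] at this
  have a8 : star (v 1) * star (v 1) = 0 := by rw [← star_mul, a7, star_zero]
  have m0 := (mem' _).1 (hv.mem 0)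
  have m1 := (mem' _).1 (hv.mem 1)
  have m1' := (mem' _).1 (star_mem hC' (hv.mem 1))
  let V0 : Cor hC hz := ⟨v 0, m0.1, hgv 0⟩
  let V1 : Cor hC hz := ⟨v 1, m1.1, hgv 1⟩
  have v0 : V0.val = v 0 := rfl
  have v1 : V1.val = v 1 := rfl
  have c0 : ∀ a b, Commute V0 (e a b) := fun a b => Cor.ext (m0.2 a b).symm
  have c1 : ∀ a b, Commute V1 (e a b) := fun a b => Cor.ext (m1.2 a b).symm
  have c1' : ∀ a b, Commute (star V1) (e a b) := fun a b => Cor.ext (m1'.2 a b).symm
  refine ⟨V1 + star V1, V0 - V1 * star V1, ⟨?_, ?_, ?_, ?_, ?_⟩,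
    fun a b => (c1 a b).add_left (c1' a b),
    fun a b => (c0 a b).sub_left ((c1 a b).mul_left (c1' a b))⟩
  · rw [star_add, star_star, add_comm]
  · apply Cor.ext
    simp [v0, v1, h00]
  · apply Cor.ext
    simp only [Cor.val_mul, Cor.val_add, Cor.val_star, v1, Cor.val_one, add_mul, mul_add, a7, a8,
      a4]
    rw [hzs]; abel
  · apply Cor.ext
    simp only [Cor.val_mul, Cor.val_sub, Cor.val_star, v0, v1, Cor.val_one, sub_mul, mul_sub, a1]
    rw [← mul_assoc (v 0), a2, mul_assoc (v 1) _ (v 0), a5, mul_assoc (v 1),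
      ← mul_assoc (star (v 1)), a4, a6, hzs]
    simp
  · apply Cor.ext
    simp only [Cor.val_mul, Cor.val_sub, Cor.val_add, Cor.val_neg, Cor.val_star, v0, v1, sub_mul,
      mul_sub, add_mul, mul_add, a2, a3, a5, a6]
    rw [mul_assoc (v 1) _ (v 1), a4, a3, mul_assoc (v 1) _ (star _), a8, ← mul_assoc (v 1) (v 1),
      a7, ← mul_assoc (star (v 1)), a4, a6]
    simp only [zero_mul, mul_zero]
    abel

end

theorem vf_add (L : List (K × K)) (a b : K →L[ℂ] K) : vf L (a + b) = vf L a + vf L b := by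
  induction L with
  | nil => simp [vf]
  | cons p L ih =>
    simp only [vf, List.map_cons, List.sum_cons, add_apply,
      inner_add_right] at ih ⊢
    rw [ih]; ring

theorem vf_smul (L : List (K × K)) (c : ℂ) (a : K →L[ℂ] K) : vf L (c • a) = c * vf L a := by
  induction L with
  | nil => simp [vf]
  | cons p L ih =>
    simp only [vf, List.map_cons, List.sum_cons, smul_apply,
      inner_smul_right] at ih ⊢
    rw [ih]; ring

theorem vf_tendsto {ι : Type*} {l : Filter ι} {A : ι → (K →L[ℂ] K)} {y : K →L[ℂ] K}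
    (h : ∀ u v, Tendsto (fun k => ⟪u, A k v⟫_ℂ) l (𝓝 ⟪u, y v⟫_ℂ)) (L : List (K × K))
    (x : K →L[ℂ] K) : Tendsto (fun k => vf L (x * A k)) l (𝓝 (vf L (x * y))) := by
  induction L with
  | nil => exact tendsto_const_nhds
  | cons p L ih =>
    simp only [vf, List.map_cons, List.sum_cons] at ih ⊢
    refine Tendsto.add ?_ ih
    have := h (ContinuousLinearMap.adjoint x p.1) p.2
    simp only [ContinuousLinearMap.adjoint_inner_left] at this
    exact this

theorem zmean_typeII (hT : ∀ (A : Type u) [CStarAlgebra A], TrMean A)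
    (hC : ∀ c ∈ C, star c ∈ C) (S : StarSubalgebra ℂ (K →L[ℂ] K))
    (hS : ∀ a, a ∈ S ↔ a ∈ C.centralizer) (z : S) (hz : IsCP C.centralizer z)
    (h : TypeII C.centralizer z) : ZMean S z := by
  obtain ⟨hab, L, hL, h1, htr, hst, hpos, hfaith⟩ := h
  have hz1 : vf L (z : K →L[ℂ] K) = 1 := by
    rw [← h1]
    unfold vf
    congr 1
    exact List.map_congr_left fun p hp => by rw [(hL p hp).2]; rfl
  let τ : H1VN.Tr (Cor hC hz) :=
    { τ := { toFun := fun a => vf L a.val
             map_add' := fun a b => vf_add L _ _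
             map_smul' := fun c a => vf_smul L _ _ }
      tr := fun x y => htr _ x.mem _ y.mem
      one := hz1
      star := fun x => hst _ x.mem
      pos := fun x => hpos _ x.mem }
  obtain ⟨l, hl, hmean, hlim⟩ := hT (Cor hC hz) τ (ext_cor hab)
  let ι : Cor hC hz →L[ℂ] S := LinearMap.mkContinuous
    { toFun := fun a => ⟨a.val, (hS _).2 a.mem⟩
      map_add' := fun a b => rfl
      map_smul' := fun c a => rfl } 1 fun a => by rw [one_mul]; exact le_rfl
  have hzn : ‖(z : K →L[ℂ] K)‖ ≤ 1 := hz.proj.norm_le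
  let κ : S →L[ℂ] Cor hC hz := LinearMap.mkContinuous
    { toFun := fun a => ⟨(z : K →L[ℂ] K) * a, mul_mem hz.mem ((hS _).1 a.2), by
        rw [← mul_assoc, hz.proj.isIdempotentElem.eq]⟩
      map_add' := fun a b => Subtype.ext (mul_add _ _ _)
      map_smul' := fun c a => Subtype.ext (mul_smul_comm _ _ _) } 1 fun a =>
        (norm_mul_le (z : K →L[ℂ] K) a).trans (mul_le_mul_of_nonneg_right hzn (norm_nonneg _))
  have ιv : ∀ a, (ι a : K →L[ℂ] K) = a.val := fun a => rfl
  have κv : ∀ a, (κ a).val = (z : K →L[ℂ] K) * a := fun a => rfl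
  have hun : ∀ u : Cor hC hz, u ∈ unitary (Cor hC hz) → ‖u‖ ≤ 1 := by
    intro u hu
    have h2 := CStarRing.norm_star_mul_self (x := u)
    rw [hu.1] at h2
    have h3 : ‖(1 : Cor hC hz)‖ ≤ 1 := hzn
    nlinarith [norm_nonneg u]
  let Ω : List (ℝ × Cor hC hz) → List (S × S) := fun μ =>
    μ.map fun q => ((q.1 : ℂ) • ι (star q.2), ι q.2)
  refine ⟨l.map Ω, inferInstance, ?_, fun T a ξ η => ?_⟩
  · rw [eventually_map]
    refine hmean.mono fun μ hμ => ?_
    have key : ∀ μ : List (ℝ × Cor hC hz), (∀ q ∈ μ, 0 ≤ q.1 ∧ q.2 ∈ unitary (Cor hC hz)) →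
        ((Ω μ).map fun p => p.1 * p.2).sum = (((μ.map Prod.fst).sum : ℝ) : ℂ) • z ∧
        ((Ω μ).map fun p => ‖p.1‖ * ‖p.2‖).sum ≤ (μ.map Prod.fst).sum := by
      intro μ
      induction μ with
      | nil => simp [Ω]
      | cons q μ ih =>
        intro hq
        obtain ⟨i1, i2⟩ := ih fun q' h' => hq q' (List.mem_cons_of_mem _ h')
        obtain ⟨q0, qu⟩ := hq q List.mem_cons_self
        simp only [Ω, List.map_cons, List.sum_cons] at i1 i2 ⊢
        constructor
        · rw [i1, Complex.ofReal_add, add_smul, smul_mul_assoc]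
          congr 2
          exact Subtype.ext (congrArg Cor.val qu.1)
        · refine add_le_add ?_ i2
          have n1 : ‖ι q.2‖ ≤ 1 := hun _ qu
          have n2 : ‖ι (star q.2)‖ ≤ 1 := hun _ (Unitary.star_mem qu)
          rw [norm_smul, Complex.norm_real, Real.norm_of_nonneg q0, mul_assoc]
          exact mul_le_of_le_one_right q0 (mul_le_one₀ n2 (norm_nonneg _) n1)
    obtain ⟨k1, k2⟩ := key μ hμ.1
    rw [hμ.2] at k1 k2
    exact ⟨by simpa using k1, k2⟩
  · let φ : Cor hC hz →L[ℂ] Cor hC hz := κ ∘L T ∘L ι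
    let d : List (ℝ × Cor hC hz) → Cor hC hz := fun μ =>
      ev μ (fun u => star u * φ (u * κ a)) - κ a * ev μ (fun u => star u * φ u)
    have hev : ∀ (b : S) (μ : List (ℝ × Cor hC hz)), (ev μ (fun u => star u * φ (u * κ b))).val =
        ((tav (Ω μ) T b : S) : K →L[ℂ] K) := by
      intro b μ
      induction μ with
      | nil => rfl
      | cons q μ ih =>
        simp only [ev, tav, Ω, List.map_cons, List.sum_cons, Cor.val_add] at ih ⊢
        rw [ih, Cor.val_rsmul, smul_mul_assoc]
        have e1 : ι (q.2 * κ b) = ι q.2 * b := Subtype.ext (by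
          change q.2.val * ((z : K →L[ℂ] K) * b) = q.2.val * b
          rw [← mul_assoc, Cor.mul_z])
        have e2 : (star q.2 * φ (q.2 * κ b)).val = (ι (star q.2) * T (ι q.2 * b) : S) := by
          change (star q.2).val * ((z : K →L[ℂ] K) * (T (ι (q.2 * κ b)) : K →L[ℂ] K)) = _
          rw [← mul_assoc, Cor.mul_z, e1]; rfl
        rw [e2]; rfl
    have hκ1 : κ 1 = 1 := Cor.ext (by rw [κv]; exact mul_one _)
    have hd : ∀ μ, ((z * (tav (Ω μ) T a - a * tav (Ω μ) T 1) : S) : K →L[ℂ] K) = (d μ).val := by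
      intro μ
      have e1 := hev a μ
      have e2 := hev 1 μ
      simp only [hκ1, mul_one] at e2
      simp only [d, Cor.val_sub, Cor.val_mul, κv, e2]
      rw [← Cor.z_mul (ev μ _), e1]
      simp [mul_sub, mul_assoc]
    have hbd : ∀ (F : Cor hC hz → Cor hC hz) (c : ℝ), (∀ u ∈ unitary (Cor hC hz), ‖F u‖ ≤ c) →
        ∀ μ : List (ℝ × Cor hC hz), (∀ q ∈ μ, 0 ≤ q.1 ∧ q.2 ∈ unitary (Cor hC hz)) →
          ‖ev μ F‖ ≤ (μ.map Prod.fst).sum * c := by
      intro F c hF μ
      induction μ with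
      | nil => simp [ev]
      | cons q μ ih =>
        intro hq
        have i1 := ih fun q' h' => hq q' (List.mem_cons_of_mem _ h')
        obtain ⟨q0, qu⟩ := hq q List.mem_cons_self
        simp only [ev, List.map_cons, List.sum_cons] at i1 ⊢
        refine (norm_add_le _ _).trans ?_
        rw [add_mul, norm_smul, Real.norm_of_nonneg q0]
        exact add_le_add (mul_le_mul_of_nonneg_left (hF _ qu) q0) i1
    have hF : ∀ b : Cor hC hz, ∀ u ∈ unitary (Cor hC hz), ‖star u * φ (u * b)‖ ≤ ‖φ‖ * ‖b‖ := by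
      intro b u hu
      refine (norm_mul_le _ _).trans ?_
      rw [norm_star]
      refine (mul_le_of_le_one_left (norm_nonneg _) (hun u hu)).trans ((φ.le_opNorm _).trans ?_)
      gcongr
      exact (norm_mul_le _ _).trans (mul_le_of_le_one_left (norm_nonneg _) (hun u hu))
    have hdb : ∀ᶠ μ in l, ‖(d μ).val‖ ≤ ‖φ‖ * ‖κ a‖ + ‖κ a‖ * (‖φ‖ * ‖(1 : Cor hC hz)‖) := by
      refine hmean.mono fun μ hμ => ?_
      have b1 := hbd _ _ (hF (κ a)) μ hμ.1
      have b2 := hbd _ _ (hF 1) μ hμ.1
      simp only [hμ.2, one_mul, mul_one] at b1 b2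
      rw [Cor.norm_val]
      refine (norm_sub_le _ _).trans (add_le_add b1 ((norm_mul_le _ _).trans ?_))
      gcongr
    rw [tendsto_map'_iff]
    simp only [Function.comp_def, hd]
    rw [tendsto_iff_ultrafilter]
    intro U hU
    obtain ⟨y, hy⟩ := exists_wot U (fun μ => (d μ).val) _ (by positivity) (hU hdb)
    have comm : ∀ c : K →L[ℂ] K, (∀ μ, c * (d μ).val = (d μ).val * c) → c * y = y * c := by
      intro c hc
      ext v
      refine ext_inner_left ℂ fun u => ?_
      have t1 := hy (ContinuousLinearMap.adjoint c u) v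
      have t2 := hy u (c v)
      simp only [ContinuousLinearMap.adjoint_inner_left] at t1
      refine tendsto_nhds_unique t1 (t2.congr fun μ => ?_)
      exact congrArg (fun T : K →L[ℂ] K => ⟪u, T v⟫_ℂ) (hc μ).symm
    have hyP : y ∈ C.centralizer := fun c hc => comm c fun μ => (d μ).mem c hc
    have hyz : y * (z : K →L[ℂ] K) = y := by
      ext v
      refine ext_inner_left ℂ fun u => ?_
      refine tendsto_nhds_unique (hy u _) ((hy u v).congr fun μ => ?_)
      exact congrArg (fun T : K →L[ℂ] K => ⟪u, T v⟫_ℂ) (d μ).mul_z.symm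
    let Y : Cor hC hz := ⟨y, hyP, (hz.comm y hyP).eq.trans hyz⟩
    have t1 := vf_tendsto hy L (star y)
    have t2 : Tendsto (fun μ => vf L (star y * (d μ).val)) U (𝓝 0) :=
      (hlim φ (star Y) (κ a)).mono_left hU
    have y0 : y = 0 := hyz.symm.trans (hfaith y hyP (tendsto_nhds_unique t1 t2))
    simpa [y0] using hy η ξ

end Crest.Agent.H5.KR
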